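import Vale.Agent.Lib.P154Anti.Cert.D5.Table1
import Vale.Agent.Lib.P154Anti.Cert.D5.Masses

namespace Vale.Agent.Lib.P154Anti.Cert.D5

open Vale.Agent.Lib.P154Anti

theorem L40 : lvlOK3 cfg par tblI1 tblE1 vE vc Q40 17590744007036 Q41 = true := by decide +kernel

theorem L41 : lvlOK3 cfg par tblI1 tblE1 vE vc Q41 17590882305652 Q42 = true := by decide +kernel

theorem L42 : lvlOK3 cfg par tblI1 tblE1 vE vc Q42 17590889731886 Q43 = true := by decide +kernel

theorem L43 : lvlOK3 cfg par tblI1 tblE1 vE vc Q43 17590948781875 Q44 = true := by decide +kernel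

theorem L44 : lvlOK3 cfg par tblI1 tblE1 vE vc Q44 17590934418735 Q45 = true := by decide +kernel

theorem L45 : lvlOK3 cfg par tblI1 tblE1 vE vc Q45 17590798971111 Q46 = true := by decide +kernel

theorem L46 : lvlOK3 cfg par tblI1 tblE1 vE vc Q46 17591006848549 Q47 = true := by decide +kernel

theorem L47 : lvlOK3 cfg par tblI1 tblE1 vE vc Q47 17591038891446 Q48 = true := by decide +kernel

theorem L48 : lvlOK3 cfg par tblI1 tblE1 vE vc Q48 17590943500611 Q49 = true := by decide +kernel

theorem L49 : lvlOK3 cfg par tblI1 tblE1 vE vc Q49 17590981734441 Q50 = true := by decide +kernel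

end Vale.Agent.Lib.P154Anti.Cert.D5
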