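import Vale.Agent.Lib.P154Anti.Cert.D5.Table3
import Vale.Agent.Lib.P154Anti.Cert.D5.Masses

namespace Vale.Agent.Lib.P154Anti.Cert.D5

open Vale.Agent.Lib.P154Anti

theorem L80 : lvlOK3 cfg par tblI3 tblE3 vE vc Q80 17591020979502 Q81 = true := by decide +kernel

theorem L81 : lvlOK3 cfg par tblI3 tblE3 vE vc Q81 17591149418446 Q82 = true := by decide +kernel

theorem L82 : lvlOK3 cfg par tblI3 tblE3 vE vc Q82 17590966986659 Q83 = true := by decide +kernel

theorem L83 : lvlOK3 cfg par tblI3 tblE3 vE vc Q83 17591069443990 Q84 = true := by decide +kernel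

theorem L84 : lvlOK3 cfg par tblI3 tblE3 vE vc Q84 17591110800311 Q85 = true := by decide +kernel

theorem L85 : lvlOK3 cfg par tblI3 tblE3 vE vc Q85 17590991644735 Q86 = true := by decide +kernel

theorem L86 : lvlOK3 cfg par tblI3 tblE3 vE vc Q86 17590970247116 Q87 = true := by decide +kernel

theorem L87 : lvlOK3 cfg par tblI3 tblE3 vE vc Q87 17591044688749 Q88 = true := by decide +kernel

theorem L88 : lvlOK3 cfg par tblI3 tblE3 vE vc Q88 17591053111104 Q89 = true := by decide +kernel

theorem L89 : lvlOK3 cfg par tblI3 tblE3 vE vc Q89 17591096252803 Q90 = true := by decide +kernel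

end Vale.Agent.Lib.P154Anti.Cert.D5
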