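import Vale.Agent.Lib.P154Anti.Cert.D5.Table3
import Vale.Agent.Lib.P154Anti.Cert.D5.Masses

namespace Vale.Agent.Lib.P154Anti.Cert.D5

open Vale.Agent.Lib.P154Anti

theorem L90 : lvlOK3 cfg par tblI3 tblE3 vE vc Q90 17591123468685 Q91 = true := by decide +kernel

theorem L91 : lvlOK3 cfg par tblI3 tblE3 vE vc Q91 17590995398214 Q92 = true := by decide +kernel

theorem L92 : lvlOK3 cfg par tblI3 tblE3 vE vc Q92 17590978865322 Q93 = true := by decide +kernel

theorem L93 : lvlOK3 cfg par tblI3 tblE3 vE vc Q93 17591117817202 Q94 = true := by decide +kernel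

end Vale.Agent.Lib.P154Anti.Cert.D5
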